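import Mathlib

/-!
# A family of Venereau-type coordinates: the core

In `ℂ[x,y,z,u]` put `p = y u + z²`.  For `α β γ ∈ ℂ[x]` with `α² = β γ` we prove that
`v = y + α β (β z + y p)` is a `ℂ[x]`-coordinate.

The proof gives explicit polynomials `X₁, Y₁` such that `x ↦ x, y ↦ v, z ↦ X₁, u ↦ Y₁` is an
automorphism: every variable is written as a polynomial in `x, v, X₁, Y₁`, so this endomorphism is
surjective, and a surjective endomorphism of a Noetherian ring is bijective.
-/

namespace Vale.Agent.Lib.P295.VenereauCore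

open MvPolynomial

section Identities

variable {A : Type*} [CommRing A] (a b c y z u : A)

/-- `p = y u + z²`. -/
def pp : A := y * u + z ^ 2
/-- `r = b z + y p`. -/
def rr : A := b * z + y * pp y z u
/-- `v = y + 2 a b r`. -/
def vv : A := y + 2 * a * b * rr b y z u
/-- `τ = b² u - 2 b z p - y p²`. -/
def tt : A := b ^ 2 * u - 2 * b * z * pp y z u - y * pp y z u ^ 2
/-- `w = b u - z p`. -/
def ww : A := b * u - z * pp y z u
/-- `p₁ = p + a² τ²`. -/
def p1 : A := pp y z u + a ^ 2 * tt b y z u ^ 2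
/-- second new coordinate `X₁`. -/
def X1 : A :=
  z - 2 * a * rr b y z u * pp y z u - a * tt b y z u - vv a b y z u * c * tt b y z u ^ 2
/-- third new coordinate `Y₁`. -/
def Y1 : A :=
  u - p1 a b y z u * (2 * a * ww b y z u + 2 * a * c * rr b y z u * tt b y z u ^ 2)
    + 2 * c * z * tt b y z u ^ 2 - y * c ^ 2 * tt b y z u ^ 4

variable {a b c}

theorem id1 (h : a ^ 2 = b * c) :
    vv a b y z u * Y1 a b c y z u + X1 a b c y z u ^ 2 = p1 a b y z u := by
  simp only [Y1, X1, p1, vv, tt, ww, rr, pp]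
  linear_combination
    (-(2 * a * (y + 2 * a * b * (b * z + y * (y * u + z ^ 2))) *
      (b ^ 2 * u - 2 * b * z * (y * u + z ^ 2) - y * (y * u + z ^ 2) ^ 2) ^ 2 *
      ((b * u - z * (y * u + z ^ 2)) + c * (b * z + y * (y * u + z ^ 2)) *
        (b ^ 2 * u - 2 * b * z * (y * u + z ^ 2) - y * (y * u + z ^ 2) ^ 2) ^ 2))) * h

theorem id3 (h : a ^ 2 = b * c) :
    b * X1 a b c y z u + vv a b y z u * p1 a b y z u + a * b * tt b y z u = rr b y z u := by
  simp only [X1, p1, vv, tt, rr, pp]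
  linear_combination
    ((y + 2 * a * b * (b * z + y * (y * u + z ^ 2))) *
      (b ^ 2 * u - 2 * b * z * (y * u + z ^ 2) - y * (y * u + z ^ 2) ^ 2) ^ 2) * h

set_option maxRecDepth 100000 in
theorem id2 (h : a ^ 2 = b * c) :
    b ^ 2 * Y1 a b c y z u - 2 * b * X1 a b c y z u * p1 a b y z u
      - vv a b y z u * p1 a b y z u ^ 2 = tt b y z u := by
  unfold Y1 X1 p1 vv tt ww rr pp
  linear_combination
    ((a ^ 2 + b * c) * y *
        (b ^ 2 * u - 2 * b * z * (y * u + z ^ 2) - y * (y * u + z ^ 2) ^ 2) ^ 4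
      - 2 * b * z * (b ^ 2 * u - 2 * b * z * (y * u + z ^ 2) - y * (y * u + z ^ 2) ^ 2) ^ 2
      + 2 * a * b * (b * z + y * (y * u + z ^ 2)) *
        (b ^ 2 * u - 2 * b * z * (y * u + z ^ 2) - y * (y * u + z ^ 2) ^ 2) ^ 2 *
        ((y * u + z ^ 2) + a ^ 2 *
          (b ^ 2 * u - 2 * b * z * (y * u + z ^ 2) - y * (y * u + z ^ 2) ^ 2) ^ 2)
      - 2 * (y + 2 * a * b * (b * z + y * (y * u + z ^ 2))) *
        (b ^ 2 * u - 2 * b * z * (y * u + z ^ 2) - y * (y * u + z ^ 2) ^ 2) ^ 2 *
        ((y * u + z ^ 2) + a ^ 2 *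
          (b ^ 2 * u - 2 * b * z * (y * u + z ^ 2) - y * (y * u + z ^ 2) ^ 2) ^ 2)) * h

/-- `y` from `v` and `r`. -/
theorem back_y : y = vv a b y z u - 2 * a * b * rr b y z u := by
  simp only [vv]; ring

/-- `p` from `p₁` and `τ`. -/
theorem back_p : pp y z u = p1 a b y z u - a ^ 2 * tt b y z u ^ 2 := by
  simp only [p1]; ring

/-- `z` from `X₁` and the rest. -/
theorem back_z : z = X1 a b c y z u + 2 * a * rr b y z u * pp y z u + a * tt b y z u
    + vv a b y z u * c * tt b y z u ^ 2 := by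
  simp only [X1]; ring

/-- `u` as a polynomial in the other quantities. -/
theorem back_u : u = (1 + 2 * a * b * p1 a b y z u) *
      (Y1 a b c y z u - 2 * a * p1 a b y z u * z * pp y z u
        + 2 * a * c * p1 a b y z u * rr b y z u * tt b y z u ^ 2
        - 2 * c * z * tt b y z u ^ 2 + y * c ^ 2 * tt b y z u ^ 4)
    + 4 * a ^ 2 * p1 a b y z u ^ 2 *
      (tt b y z u + 2 * b * z * pp y z u + y * pp y z u ^ 2) := by
  simp only [Y1, ww, tt]; ring

end Identities

/-- A surjective ring endomorphism of a Noetherian ring is injective. -/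
theorem injective_of_surjective_endo {R : Type*} [CommRing R] [IsNoetherianRing R]
    (f : R →+* R) (hf : Function.Surjective f) : Function.Injective f := by
  have hpow : ∀ n : ℕ, Function.Surjective (f ^ n : R →+* R) := by
    intro n
    induction n with
    | zero => exact fun x => ⟨x, rfl⟩
    | succ n ih =>
      intro x
      obtain ⟨y, rfl⟩ := hf x
      obtain ⟨w, rfl⟩ := ih y
      exact ⟨w, by rw [pow_succ', RingHom.mul_def, RingHom.comp_apply]⟩
  let I : ℕ →o Ideal R :=
    { toFun := fun n => RingHom.ker (f ^ n : R →+* R)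
      monotone' := by
        refine monotone_nat_of_le_succ fun n x hx => ?_
        rw [RingHom.mem_ker] at hx ⊢
        rw [pow_succ', RingHom.mul_def, RingHom.comp_apply, hx, map_zero] }
  obtain ⟨n, hn⟩ := monotone_stabilizes_iff_noetherian.mpr (inferInstance : IsNoetherian R R) I
  rw [injective_iff_map_eq_zero]
  intro x hx
  obtain ⟨w, rfl⟩ := hpow n x
  have hw : w ∈ I (n + 1) := by
    change w ∈ RingHom.ker (f ^ (n + 1) : R →+* R)
    rw [RingHom.mem_ker, pow_succ', RingHom.mul_def, RingHom.comp_apply]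
    exact hx
  rw [← hn (n + 1) (Nat.le_succ n)] at hw
  exact hw

/-- The core statement with rescaled parameters. -/
theorem core (a b c : Polynomial ℂ) (h : a ^ 2 = b * c) :
    ∃ φ : MvPolynomial (Fin 4) ℂ ≃ₐ[ℂ] MvPolynomial (Fin 4) ℂ,
      φ (X 0) = X 0 ∧
      φ (X 1) = vv (Polynomial.aeval (X 0 : MvPolynomial (Fin 4) ℂ) a)
        (Polynomial.aeval (X 0 : MvPolynomial (Fin 4) ℂ) b) (X 1) (X 2) (X 3) := by
  set x : MvPolynomial (Fin 4) ℂ := X 0 with hx
  set a' := Polynomial.aeval x a with ha'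
  set b' := Polynomial.aeval x b with hb'
  set c' := Polynomial.aeval x c with hc'
  have h' : a' ^ 2 = b' * c' := by
    simp only [ha', hb', hc', ← map_pow, ← map_mul, h]
  set y : MvPolynomial (Fin 4) ℂ := X 1 with hy
  set z : MvPolynomial (Fin 4) ℂ := X 2 with hz
  set u : MvPolynomial (Fin 4) ℂ := X 3 with hu
  let F : MvPolynomial (Fin 4) ℂ →ₐ[ℂ] MvPolynomial (Fin 4) ℂ :=
    aeval ![x, vv a' b' y z u, X1 a' b' c' y z u, Y1 a' b' c' y z u]
  have F0 : F (X 0) = x := by simp [F]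
  have F1 : F (X 1) = vv a' b' y z u := by simp [F]
  have F2 : F (X 2) = X1 a' b' c' y z u := by simp [F]
  have F3 : F (X 3) = Y1 a' b' c' y z u := by simp [F]
  -- the range of `F` is everything
  have mx : x ∈ F.range := ⟨X 0, F0⟩
  have mv : vv a' b' y z u ∈ F.range := ⟨X 1, F1⟩
  have mX : X1 a' b' c' y z u ∈ F.range := ⟨X 2, F2⟩
  have mY : Y1 a' b' c' y z u ∈ F.range := ⟨X 3, F3⟩
  have mpoly : ∀ q : Polynomial ℂ, Polynomial.aeval x q ∈ F.range := by
    intro q
    refine ⟨Polynomial.aeval x q, ?_⟩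
    have : (F.comp (Polynomial.aeval x)) q = Polynomial.aeval (F x) q :=
      congrFun (congrArg DFunLike.coe (Polynomial.aeval_algHom F x)).symm q
    simpa [hx, F0] using this
  have ma : a' ∈ F.range := mpoly a
  have mb : b' ∈ F.range := mpoly b
  have mc : c' ∈ F.range := mpoly c
  have m2 : (2 : MvPolynomial (Fin 4) ℂ) ∈ F.range := by
    exact_mod_cast natCast_mem F.range 2
  have m1 : (1 : MvPolynomial (Fin 4) ℂ) ∈ F.range := one_mem _
  have m4 : (4 : MvPolynomial (Fin 4) ℂ) ∈ F.range := by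
    exact_mod_cast natCast_mem F.range 4
  have mp1 : p1 a' b' y z u ∈ F.range := by
    rw [← id1 y z u h']
    exact add_mem (mul_mem mv mY) (pow_mem mX 2)
  have mt : tt b' y z u ∈ F.range := by
    rw [← id2 y z u h']
    exact sub_mem (sub_mem (mul_mem (pow_mem mb 2) mY)
      (mul_mem (mul_mem (mul_mem m2 mb) mX) mp1)) (mul_mem mv (pow_mem mp1 2))
  have mr : rr b' y z u ∈ F.range := by
    rw [← id3 y z u h']
    exact add_mem (add_mem (mul_mem mb mX) (mul_mem mv mp1)) (mul_mem (mul_mem ma mb) mt)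
  have my : y ∈ F.range := by
    rw [back_y (a := a') (b := b') y z u]
    exact sub_mem mv (mul_mem (mul_mem (mul_mem m2 ma) mb) mr)
  have mp : pp y z u ∈ F.range := by
    rw [back_p (a := a') (b := b') y z u]
    exact sub_mem mp1 (mul_mem (pow_mem ma 2) (pow_mem mt 2))
  have mz : z ∈ F.range := by
    rw [back_z (a := a') (b := b') (c := c') y z u]
    exact add_mem (add_mem (add_mem mX (mul_mem (mul_mem (mul_mem m2 ma) mr) mp))
      (mul_mem ma mt)) (mul_mem (mul_mem mv mc) (pow_mem mt 2))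
  have mu : u ∈ F.range := by
    rw [back_u (a := a') (b := b') (c := c') y z u]
    refine add_mem (mul_mem (add_mem m1 (mul_mem (mul_mem (mul_mem m2 ma) mb) mp1)) ?_) ?_
    · exact add_mem (sub_mem (add_mem (sub_mem mY
        (mul_mem (mul_mem (mul_mem (mul_mem m2 ma) mp1) mz) mp))
        (mul_mem (mul_mem (mul_mem (mul_mem (mul_mem m2 ma) mc) mp1) mr) (pow_mem mt 2)))
        (mul_mem (mul_mem (mul_mem m2 mc) mz) (pow_mem mt 2)))
        (mul_mem (mul_mem my (pow_mem mc 2)) (pow_mem mt 4))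
    · exact mul_mem (mul_mem (mul_mem m4 (pow_mem ma 2)) (pow_mem mp1 2))
        (add_mem (add_mem mt (mul_mem (mul_mem (mul_mem m2 mb) mz) mp))
          (mul_mem my (pow_mem mp 2)))
  have hall : ∀ i : Fin 4, (X i : MvPolynomial (Fin 4) ℂ) ∈ F.range := by
    intro i
    fin_cases i
    · exact mx
    · exact my
    · exact mz
    · exact mu
  have hsurj : Function.Surjective F := by
    rw [← AlgHom.range_eq_top, eq_top_iff]
    intro w _
    induction w using MvPolynomial.induction_on with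
    | C s => exact algebraMap_mem F.range s
    | add p q hp hq => exact add_mem (hp trivial) (hq trivial)
    | mul_X p i hp => exact mul_mem (hp trivial) (hall i)
  have hinj : Function.Injective F :=
    injective_of_surjective_endo (F : MvPolynomial (Fin 4) ℂ →+* MvPolynomial (Fin 4) ℂ) hsurj
  refine ⟨AlgEquiv.ofBijective F ⟨hinj, hsurj⟩, ?_, ?_⟩
  · exact F0
  · exact F1

/-- General form: `α² = β γ` implies `y + α β (β z + y (y u + z²))` is a `ℂ[x]`-coordinate. -/
theorem general (α β γ : Polynomial ℂ) (h : α ^ 2 = β * γ) :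
    ∃ φ : MvPolynomial (Fin 4) ℂ ≃ₐ[ℂ] MvPolynomial (Fin 4) ℂ,
      φ (X 0) = X 0 ∧
      φ (X 1 + Polynomial.aeval (X 0 : MvPolynomial (Fin 4) ℂ) α *
          Polynomial.aeval (X 0 : MvPolynomial (Fin 4) ℂ) β *
          (Polynomial.aeval (X 0 : MvPolynomial (Fin 4) ℂ) β * X 2 +
            X 1 * (X 1 * X 3 + X 2 ^ 2))) = X 1 := by
  obtain ⟨φ, h0, h1⟩ := core (Polynomial.C (1 / 2 : ℂ) * α) β (Polynomial.C (1 / 4 : ℂ) * γ) (by
    rw [mul_pow, h, ← Polynomial.C_pow]
    norm_num
    ring)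
  have h2 : (2 : MvPolynomial (Fin 4) ℂ) * (algebraMap ℂ (MvPolynomial (Fin 4) ℂ)) (1 / 2) = 1 := by
    rw [← map_ofNat (algebraMap ℂ (MvPolynomial (Fin 4) ℂ)) 2, ← map_mul]
    norm_num
  refine ⟨φ.symm, ?_, ?_⟩
  · rw [← h0, AlgEquiv.symm_apply_apply, h0]
  · have h3 : φ (X 1) = X 1 + Polynomial.aeval (X 0 : MvPolynomial (Fin 4) ℂ) α *
          Polynomial.aeval (X 0 : MvPolynomial (Fin 4) ℂ) β *
          (Polynomial.aeval (X 0 : MvPolynomial (Fin 4) ℂ) β * X 2 +
            X 1 * (X 1 * X 3 + X 2 ^ 2)) := by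
      rw [h1]
      simp only [vv, rr, pp, map_mul, Polynomial.aeval_C]
      linear_combination
        (Polynomial.aeval (X 0 : MvPolynomial (Fin 4) ℂ) α *
          Polynomial.aeval (X 0 : MvPolynomial (Fin 4) ℂ) β *
          (Polynomial.aeval (X 0 : MvPolynomial (Fin 4) ℂ) β * X 2 +
            X 1 * (X 1 * X 3 + X 2 ^ 2))) * h2
    rw [← h3, AlgEquiv.symm_apply_apply]

end Vale.Agent.Lib.P295.VenereauCore
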