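import Mathlib
import Vale.Agent.Lib.P295.VenereauCore

/-!
# Venereau-type coordinates for every slope above one

Write `x, y, z, u` for the variables of `ℂ[x,y,z,u]`, `p = y u + z²`, `r = b z + y p` for `b ∈ ℂ[x]`.
We prove that `y + 2 a b r` is a `ℂ[x]`-coordinate as soon as `b` divides a power of `a`.

The proof uses explicit polynomials `Z₁, U₁`, depending on one extra polynomial `G`, with
`v U₁ + Z₁² = P`, `b Z₁ + v g + a b T = r`, `b² U₁ - 2 b Z₁ g - v g² = T`, where
`P = p + a² T²` and `g = p - b G`. The polynomial `g` is obtained from `P` and `v` by iterating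
`g ↦ P - a² v² g⁴`, which is possible since `b` divides a power of `a`.
-/

namespace Vale.Agent.Lib.P295.Radical

open MvPolynomial
open Vale.Agent.Lib.P295.VenereauCore

section Identities

variable {A : Type*} [CommRing A] (a b y z u G : A)

/-- `P = p + a² T²`. -/
def P1 : A := pp y z u + a ^ 2 * tt b y z u ^ 2

/-- `g = p - b G`. -/
def gg : A := pp y z u - b * G

/-- the third coordinate. -/
def Z1 : A := z - a * tt b y z u - 2 * a * rr b y z u * gg b y z u G + y * G

/-- the fourth coordinate. -/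
def U1 : A := u - 2 * a * pp y z u * (b * u - z * pp y z u) + 2 * a * tt b y z u * G
  + 4 * a * rr b y z u * pp y z u * G - 2 * z * G - vv a b y z u * G ^ 2

theorem I1 : vv a b y z u * U1 a b y z u G + Z1 a b y z u G ^ 2 = P1 a b y z u := by
  simp only [U1, Z1, P1, gg, vv, tt, rr, pp]
  ring

theorem I2 :
    b * Z1 a b y z u G + vv a b y z u * gg b y z u G + a * b * tt b y z u = rr b y z u := by
  simp only [Z1, gg, vv, tt, rr, pp]
  ring

theorem I3 : b ^ 2 * U1 a b y z u G - 2 * b * Z1 a b y z u G * gg b y z u G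
    - vv a b y z u * gg b y z u G ^ 2 = tt b y z u := by
  simp only [U1, Z1, gg, vv, tt, rr, pp]
  ring

/-- The iteration `g ↦ P - w g⁴` started at `P`. -/
def gSeq (P w : A) : ℕ → A
  | 0 => P
  | n + 1 => P - w * gSeq P w n ^ 4

/-- `ε = b u - 2 z p + 2 a r p²`. -/
def eps : A := b * u - 2 * z * pp y z u + 2 * a * rr b y z u * pp y z u ^ 2

/-- `κ = ε (b ε - 2 v p²)`. -/
def kap : A :=
  eps a b y z u * (b * eps a b y z u - 2 * vv a b y z u * pp y z u ^ 2)

theorem P1_eq : P1 a b y z u =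
    pp y z u + a ^ 2 * vv a b y z u ^ 2 * pp y z u ^ 4 + a ^ 2 * b * kap a b y z u := by
  simp only [P1, kap, eps, vv, tt, rr, pp]
  ring

/-- Shape of the iterates: `gₙ = p + w^(n+1) h + a² b k`. -/
theorem gSeq_form (n : ℕ) : ∃ h k : A,
    gSeq (P1 a b y z u) (a ^ 2 * vv a b y z u ^ 2) n =
      pp y z u + (a ^ 2 * vv a b y z u ^ 2) ^ (n + 1) * h + a ^ 2 * b * k := by
  induction n with
  | zero =>
    refine ⟨pp y z u ^ 4, kap a b y z u, ?_⟩
    simp only [gSeq, P1_eq]
    ring
  | succ n ih =>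
    obtain ⟨h, k, e⟩ := ih
    set w := a ^ 2 * vv a b y z u ^ 2 with hw
    set p := pp y z u with hp
    set δ := w ^ (n + 1) * h + a ^ 2 * b * k with hδ
    have e' : gSeq (P1 a b y z u) w n = p + δ := by rw [e, hδ]; ring
    set D := 4 * p ^ 3 + 6 * p ^ 2 * δ + 4 * p * δ ^ 2 + δ ^ 3 with hD
    refine ⟨-(h * D), kap a b y z u - w * k * D, ?_⟩
    have e4 : (p + δ) ^ 4 = p ^ 4 + δ * D := by rw [hD]; ring
    simp only [gSeq]
    rw [e', e4, P1_eq, ← hw, ← hp]
    rw [hδ]
    ring

/-- If `a^M = b c` then an iterate of `g ↦ P - a² v² g⁴` has the form `p - b (a G')`. -/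
theorem gSeq_exists {c : A} {M : ℕ} (hc : a ^ M = b * c) : ∃ G' : A,
    gSeq (P1 a b y z u) (a ^ 2 * vv a b y z u ^ 2) M = gg b y z u (a * G') := by
  obtain ⟨h, k, e⟩ := gSeq_form a b y z u M
  refine ⟨-(c * a ^ (M + 1) * vv a b y z u ^ (2 * (M + 1)) * h + a * k), ?_⟩
  rw [e, gg]
  have e2 : (a ^ 2 * vv a b y z u ^ 2) ^ (M + 1) =
      a ^ M * (a ^ (M + 2) * vv a b y z u ^ (2 * (M + 1))) := by
    rw [mul_pow, ← pow_mul, ← pow_mul]
    ring
  rw [e2, hc]
  ring

theorem gSeq_mem {S : Type*} [SetLike S A] [SubringClass S A] (T : S) {P w : A}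
    (hP : P ∈ T) (hw : w ∈ T) (n : ℕ) : gSeq P w n ∈ T := by
  induction n with
  | zero => exact hP
  | succ n ih => exact sub_mem hP (mul_mem hw (pow_mem ih 4))

end Identities

/-- The embedding of `ℂ[x]` in `ℂ[x,y,z,u]` is injective. -/
theorem aeval_X0_injective :
    Function.Injective (Polynomial.aeval (X 0 : MvPolynomial (Fin 4) ℂ) : Polynomial ℂ → _) := by
  let back : MvPolynomial (Fin 4) ℂ →ₐ[ℂ] Polynomial ℂ :=
    aeval ![Polynomial.X, 0, 0, 0]
  have hb : ∀ q : Polynomial ℂ,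
      back (Polynomial.aeval (X 0 : MvPolynomial (Fin 4) ℂ) q) = q := by
    intro q
    have : (back.comp (Polynomial.aeval (X 0 : MvPolynomial (Fin 4) ℂ))) q =
        Polynomial.aeval (back (X 0)) q :=
      congrFun (congrArg DFunLike.coe (Polynomial.aeval_algHom back (X 0))).symm q
    simpa [back] using this
  intro q₁ q₂ h
  rw [← hb q₁, ← hb q₂]
  exact congrArg back h

/-- The main theorem with the normalisation `y + 2 a b r`. -/
theorem core (a b c : Polynomial ℂ) (M : ℕ) (h : a ^ M = b * c) :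
    ∃ φ : MvPolynomial (Fin 4) ℂ ≃ₐ[ℂ] MvPolynomial (Fin 4) ℂ,
      φ (X 0) = X 0 ∧
      φ (X 1) = vv (Polynomial.aeval (X 0 : MvPolynomial (Fin 4) ℂ) a)
        (Polynomial.aeval (X 0 : MvPolynomial (Fin 4) ℂ) b) (X 1) (X 2) (X 3) := by
  by_cases ha0 : a = 0
  · subst ha0
    refine ⟨AlgEquiv.refl, rfl, ?_⟩
    simp [vv]
  set x : MvPolynomial (Fin 4) ℂ := X 0 with hx
  set a' := Polynomial.aeval x a with ha'
  set b' := Polynomial.aeval x b with hb'
  set c' := Polynomial.aeval x c with hc'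
  have ha'0 : a' ≠ 0 := by
    intro h0
    apply ha0
    apply aeval_X0_injective
    rw [map_zero]
    exact h0
  have h' : a' ^ M = b' * c' := by
    simp only [ha', hb', hc', ← map_pow, ← map_mul, h]
  set y : MvPolynomial (Fin 4) ℂ := X 1 with hy
  set z : MvPolynomial (Fin 4) ℂ := X 2 with hz
  set u : MvPolynomial (Fin 4) ℂ := X 3 with hu
  obtain ⟨G', hG⟩ := gSeq_exists a' b' y z u h'
  set G := a' * G' with hGdef
  let F : MvPolynomial (Fin 4) ℂ →ₐ[ℂ] MvPolynomial (Fin 4) ℂ :=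
    aeval ![x, vv a' b' y z u, Z1 a' b' y z u G, U1 a' b' y z u G]
  have F0 : F (X 0) = x := by simp [F]
  have F1 : F (X 1) = vv a' b' y z u := by simp [F]
  have F2 : F (X 2) = Z1 a' b' y z u G := by simp [F]
  have F3 : F (X 3) = U1 a' b' y z u G := by simp [F]
  -- `F` fixes `ℂ[x]`
  have Fpoly : ∀ q : Polynomial ℂ, F (Polynomial.aeval x q) = Polynomial.aeval x q := by
    intro q
    have : (F.comp (Polynomial.aeval x)) q = Polynomial.aeval (F x) q :=
      congrFun (congrArg DFunLike.coe (Polynomial.aeval_algHom F x)).symm q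
    simpa [hx, F0] using this
  have mx : x ∈ F.range := ⟨X 0, F0⟩
  have mv : vv a' b' y z u ∈ F.range := ⟨X 1, F1⟩
  have mZ : Z1 a' b' y z u G ∈ F.range := ⟨X 2, F2⟩
  have mU : U1 a' b' y z u G ∈ F.range := ⟨X 3, F3⟩
  have mpoly : ∀ q : Polynomial ℂ, Polynomial.aeval x q ∈ F.range :=
    fun q => ⟨Polynomial.aeval x q, Fpoly q⟩
  have ma : a' ∈ F.range := mpoly a
  have mb : b' ∈ F.range := mpoly b
  have mc : c' ∈ F.range := mpoly c
  have m2 : (2 : MvPolynomial (Fin 4) ℂ) ∈ F.range := by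
    exact_mod_cast natCast_mem F.range 2
  have mP : P1 a' b' y z u ∈ F.range := by
    rw [← I1 a' b' y z u G]
    exact add_mem (mul_mem mv mU) (pow_mem mZ 2)
  have mg : gg b' y z u G ∈ F.range := by
    rw [← hG]
    exact gSeq_mem F.range mP (mul_mem (pow_mem ma 2) (pow_mem mv 2)) M
  have mT : tt b' y z u ∈ F.range := by
    rw [← I3 a' b' y z u G]
    exact sub_mem (sub_mem (mul_mem (pow_mem mb 2) mU)
      (mul_mem (mul_mem (mul_mem m2 mb) mZ) mg)) (mul_mem mv (pow_mem mg 2))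
  have mr : rr b' y z u ∈ F.range := by
    rw [← I2 a' b' y z u G]
    exact add_mem (add_mem (mul_mem mb mZ) (mul_mem mv mg)) (mul_mem (mul_mem ma mb) mT)
  have my : y ∈ F.range := by
    rw [back_y (a := a') (b := b') y z u]
    exact sub_mem mv (mul_mem (mul_mem (mul_mem m2 ma) mb) mr)
  have mp : pp y z u ∈ F.range := by
    rw [back_p (a := a') (b := b') y z u]
    exact sub_mem mP (mul_mem (pow_mem ma 2) (pow_mem mT 2))
  have mbz : b' * z ∈ F.range := by
    have e : b' * z = rr b' y z u - y * pp y z u := by simp only [rr]; ring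
    rw [e]
    exact sub_mem mr (mul_mem my mp)
  have mbbu : b' ^ 2 * u ∈ F.range := by
    have e : b' ^ 2 * u = tt b' y z u + 2 * (b' * z) * pp y z u + y * pp y z u ^ 2 := by
      simp only [tt]; ring
    rw [e]
    exact add_mem (add_mem mT (mul_mem (mul_mem m2 mbz) mp)) (mul_mem my (pow_mem mp 2))
  have hgen : ∀ i : Fin 4, b' ^ 2 * (X i : MvPolynomial (Fin 4) ℂ) ∈ F.range := by
    intro i
    fin_cases i
    · exact mul_mem (pow_mem mb 2) mx
    · exact mul_mem (pow_mem mb 2) my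
    · have : b' ^ 2 * z = b' * (b' * z) := by ring
      change b' ^ 2 * z ∈ F.range
      rw [this]
      exact mul_mem mb mbz
    · exact mbbu
  -- every element is in the range after multiplying with a power of `b'`
  have hpowb : ∀ f : MvPolynomial (Fin 4) ℂ, ∃ k : ℕ, b' ^ k * f ∈ F.range := by
    intro f
    induction f using MvPolynomial.induction_on with
    | C s => exact ⟨0, by simpa using algebraMap_mem F.range s⟩
    | add p q hp hq =>
      obtain ⟨k₁, h₁⟩ := hp
      obtain ⟨k₂, h₂⟩ := hq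
      refine ⟨k₁ + k₂, ?_⟩
      have e : b' ^ (k₁ + k₂) * (p + q) = b' ^ k₂ * (b' ^ k₁ * p) + b' ^ k₁ * (b' ^ k₂ * q) := by
        ring
      rw [e]
      exact add_mem (mul_mem (pow_mem mb _) h₁) (mul_mem (pow_mem mb _) h₂)
    | mul_X p i hp =>
      obtain ⟨k, hk⟩ := hp
      refine ⟨k + 2, ?_⟩
      have e : b' ^ (k + 2) * (p * X i) = (b' ^ k * p) * (b' ^ 2 * X i) := by ring
      rw [e]
      exact mul_mem hk (hgen i)
  -- `F` is the identity modulo `a'`
  have hcong : ∀ f : MvPolynomial (Fin 4) ℂ, a' ∣ F f - f := by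
    intro f
    let Q := Ideal.span {a'}
    let mk : MvPolynomial (Fin 4) ℂ →ₐ[ℂ] (MvPolynomial (Fin 4) ℂ ⧸ Q) := Ideal.Quotient.mkₐ ℂ Q
    have hzero : ∀ t : MvPolynomial (Fin 4) ℂ, mk (a' * t) = 0 := by
      intro t
      apply Ideal.Quotient.eq_zero_iff_mem.mpr
      exact Ideal.mem_span_singleton.mpr (dvd_mul_right a' t)
    have heq : ∀ s t : MvPolynomial (Fin 4) ℂ, (∃ w, s - t = a' * w) → mk s = mk t := by
      rintro s t ⟨w, hw⟩
      have : s = t + a' * w := by rw [← hw]; ring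
      rw [this, map_add, hzero, add_zero]
    have hcomp : mk.comp F = mk := by
      apply MvPolynomial.algHom_ext
      intro i
      fin_cases i
      · simp only [AlgHom.comp_apply]
        exact congrArg mk F0
      · simp only [AlgHom.comp_apply]
        change mk (F (X 1)) = mk y
        rw [F1]
        apply heq
        exact ⟨2 * b' * rr b' y z u, by simp only [vv]; ring⟩
      · simp only [AlgHom.comp_apply]
        change mk (F (X 2)) = mk z
        rw [F2]
        apply heq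
        refine ⟨- tt b' y z u - 2 * rr b' y z u * gg b' y z u G + y * G', ?_⟩
        simp only [Z1, hGdef]
        ring
      · simp only [AlgHom.comp_apply]
        change mk (F (X 3)) = mk u
        rw [F3]
        apply heq
        refine ⟨- 2 * pp y z u * (b' * u - z * pp y z u) + 2 * tt b' y z u * G
          + 4 * rr b' y z u * pp y z u * G - 2 * z * G' - vv a' b' y z u * G' * G, ?_⟩
        simp only [U1, hGdef]
        ring
    have : mk (F f) = mk f := by
      have := congrArg (fun φ => φ f) hcomp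
      simpa using this
    have h0 : (Ideal.Quotient.mk Q) (F f - f) = 0 := by
      rw [map_sub, sub_eq_zero]
      exact this
    exact Ideal.mem_span_singleton.mp (Ideal.Quotient.eq_zero_iff_mem.mp h0)
  -- cancelling `a'`
  have hcancel : ∀ f : MvPolynomial (Fin 4) ℂ, a' * f ∈ F.range → f ∈ F.range := by
    rintro f ⟨t, ht⟩
    have ht' : F t = a' * f := ht
    have d1 : a' ∣ F t - t := hcong t
    have d2 : a' ∣ t := by
      have e : t = a' * f - (F t - t) := by rw [ht']; ring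
      rw [e]
      exact dvd_sub (dvd_mul_right a' f) d1
    obtain ⟨t', rfl⟩ := d2
    refine ⟨t', ?_⟩
    rw [map_mul, ha', Fpoly, ← ha'] at ht'
    exact mul_left_cancel₀ ha'0 ht'
  have hcancelpow : ∀ (j : ℕ) (f : MvPolynomial (Fin 4) ℂ), a' ^ j * f ∈ F.range → f ∈ F.range := by
    intro j
    induction j with
    | zero => intro f hf; simpa using hf
    | succ j ih =>
      intro f hf
      apply ih
      apply hcancel
      have e : a' * (a' ^ j * f) = a' ^ (j + 1) * f := by ring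
      rw [e]
      exact hf
  have hsurj : Function.Surjective F := by
    intro f
    obtain ⟨k, hk⟩ := hpowb f
    have : f ∈ F.range := by
      apply hcancelpow (M * k)
      have e : a' ^ (M * k) * f = c' ^ k * (b' ^ k * f) := by
        rw [pow_mul, h', mul_pow]
        ring
      rw [e]
      exact mul_mem (pow_mem mc k) hk
    exact this
  have hinj : Function.Injective F :=
    injective_of_surjective_endo (F : MvPolynomial (Fin 4) ℂ →+* MvPolynomial (Fin 4) ℂ) hsurj
  exact ⟨AlgEquiv.ofBijective F ⟨hinj, hsurj⟩, F0, F1⟩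

/-- General form: if `b` divides a power of `a`, then `y + a b (b z + y (y u + z²))` is a
`ℂ[x]`-coordinate. -/
theorem general (a b : Polynomial ℂ) (M : ℕ) (h : b ∣ a ^ M) :
    ∃ φ : MvPolynomial (Fin 4) ℂ ≃ₐ[ℂ] MvPolynomial (Fin 4) ℂ,
      φ (X 0) = X 0 ∧
      φ (X 1 + Polynomial.aeval (X 0 : MvPolynomial (Fin 4) ℂ) a *
          Polynomial.aeval (X 0 : MvPolynomial (Fin 4) ℂ) b *
          (Polynomial.aeval (X 0 : MvPolynomial (Fin 4) ℂ) b * X 2 +
            X 1 * (X 1 * X 3 + X 2 ^ 2))) = X 1 := by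
  obtain ⟨c, hc⟩ := h
  have hC : (Polynomial.C (1 / 2 : ℂ) * a) ^ M =
      b * (Polynomial.C ((1 / 2 : ℂ) ^ M) * c) := by
    rw [mul_pow, hc, Polynomial.C_pow]
    ring
  obtain ⟨φ, h0, h1⟩ := core (Polynomial.C (1 / 2 : ℂ) * a) b _ M hC
  have h2 : (2 : MvPolynomial (Fin 4) ℂ) * (algebraMap ℂ (MvPolynomial (Fin 4) ℂ)) (1 / 2) = 1 := by
    rw [← map_ofNat (algebraMap ℂ (MvPolynomial (Fin 4) ℂ)) 2, ← map_mul]
    norm_num
  refine ⟨φ.symm, ?_, ?_⟩
  · rw [← h0, AlgEquiv.symm_apply_apply, h0]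
  · have h3 : φ (X 1) = X 1 + Polynomial.aeval (X 0 : MvPolynomial (Fin 4) ℂ) a *
          Polynomial.aeval (X 0 : MvPolynomial (Fin 4) ℂ) b *
          (Polynomial.aeval (X 0 : MvPolynomial (Fin 4) ℂ) b * X 2 +
            X 1 * (X 1 * X 3 + X 2 ^ 2)) := by
      rw [h1]
      simp only [vv, rr, pp, map_mul, Polynomial.aeval_C]
      linear_combination
        (Polynomial.aeval (X 0 : MvPolynomial (Fin 4) ℂ) a *
          Polynomial.aeval (X 0 : MvPolynomial (Fin 4) ℂ) b *
          (Polynomial.aeval (X 0 : MvPolynomial (Fin 4) ℂ) b * X 2 +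
            X 1 * (X 1 * X 3 + X 2 ^ 2))) * h2
    rw [← h3, AlgEquiv.symm_apply_apply]

/-- Monomial form: for `m > k`, `y + x^m (x^k z + y (y u + z²))` is a `ℂ[x]`-coordinate. -/
theorem monomial (m k : ℕ) (hmk : k < m) :
    ∃ φ : MvPolynomial (Fin 4) ℂ ≃ₐ[ℂ] MvPolynomial (Fin 4) ℂ,
      φ (X 0) = X 0 ∧
      φ (X 1 + (X 0 : MvPolynomial (Fin 4) ℂ) ^ m *
          ((X 0 : MvPolynomial (Fin 4) ℂ) ^ k * X 2 +
            X 1 * (X 1 * X 3 + X 2 ^ 2))) = X 1 := by
  have hdiv : (Polynomial.X : Polynomial ℂ) ^ k ∣ (Polynomial.X ^ (m - k)) ^ k := by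
    rw [← pow_mul]
    apply pow_dvd_pow
    have : 1 ≤ m - k := by omega
    nlinarith
  obtain ⟨φ, h0, h1⟩ := general (Polynomial.X ^ (m - k)) (Polynomial.X ^ k) k hdiv
  refine ⟨φ, h0, ?_⟩
  have e : (X 0 : MvPolynomial (Fin 4) ℂ) ^ m = (X 0) ^ (m - k) * (X 0) ^ k := by
    rw [← pow_add]
    congr 1
    omega
  simp only [map_pow, Polynomial.aeval_X] at h1
  rw [e]
  exact h1

end Vale.Agent.Lib.P295.Radical
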